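import Vale.Agent.P162.Final

namespace Vale.Agent.Results.P162.LinearMixing

open Vale.Agent.P162

theorem result : ∃ c C : ℝ, 0 < c ∧ 0 < C ∧ ∃ d₀ : ℕ, ∀ d ≥ d₀,
    (∑ g, thorpLaw (2 ^ d) g = 1) ∧
    tvUnif (cpow (thorpLaw (2 ^ d)) (tmix (2 ^ d))) ≤ 1 / 4 ∧
    c * Real.log (2 ^ d) ≤ (tmix (2 ^ d) : ℝ) ∧ (tmix (2 ^ d) : ℝ) ≤ C * Real.log (2 ^ d) := by
  obtain ⟨d0, h⟩ := upper
  refine ⟨1 / 2, 2 * (1507 * 64257 + 1), by norm_num, by norm_num, d0 + 2, fun d hd => ?_⟩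
  obtain ⟨d, rfl⟩ : ∃ e, d = e + 1 := ⟨d - 1, by omega⟩
  have h1 := h d (by omega)
  have h2 : tvUnif (cpow (thorpLaw (2 ^ (d + 1))) (tmix (2 ^ (d + 1)))) ≤ 1 / 4 :=
    Nat.sInf_mem (s := {t : ℕ | tvUnif (cpow (thorpLaw (2 ^ (d + 1))) t) ≤ 1 / 4}) ⟨_, h1⟩
  have h3 : tmix (2 ^ (d + 1)) ≤ 1507 * (16064 * (4 * (d + 1)) + (d + 1)) + 1 := Nat.sInf_le h1
  have h4 : (d : ℝ) ≤ tmix (2 ^ (d + 1)) := by exact_mod_cast lower h2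
  have h5 : (tmix (2 ^ (d + 1)) : ℝ) ≤ 1507 * (16064 * (4 * (d + 1)) + (d + 1)) + 1 := by
    exact_mod_cast h3
  have h6 : (1 : ℝ) ≤ d := by exact_mod_cast (show 1 ≤ d by omega)
  have l1 := Real.log_two_gt_d9
  have l2 := Real.log_two_lt_d9
  refine ⟨?_, h2, ?_, ?_⟩
  · rw [← Equiv.sum_comp (bin d).permCongr]
    exact (Finset.sum_congr rfl fun g _ => law_eq g).trans qV_sum
  · rw [Real.log_pow]; push_cast; nlinarith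
  · rw [Real.log_pow]; push_cast; nlinarith

end Vale.Agent.Results.P162.LinearMixing
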